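import Mathlib
import Vale.Agent.P329.H100.Marks

/-!
# P329, row (C) of helper962's form (note #21132): closures of the class `Lc w`

histories `X : List α`, newest letter first.  A stage is ONE function `w : List α → R`
(`R` = `ZMod p` in the applications), a cut is an `X` with `w X ≠ 0`.
-/

namespace Vale.Agent.P329.H3

variable {α : Type} {R : Type} [Zero R]

/-- finitely many residuals `Y ↦ f (Y ++ X)` -/
def FS {β : Type} (f : List α → β) : Prop :=
  (Set.range fun X : List α => fun Y : List α => f (Y ++ X)).Finite

/-- `n` copies of `v` -/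
def pw (v : List α) : ℕ → List α
  | 0 => []
  | n + 1 => v ++ pw v n

/-- no cut inside `V` (above `X`) -/
def Unc (w : List α → R) (V X : List α) : Prop :=
  ∀ B, B <:+ V → B ≠ [] → w (B ++ X) = 0

/-- aperiodic on uncut powers -/
def AP {β : Type} (w : List α → R) (G : List α → β) : Prop :=
  ∀ v : List α, ∃ N, ∀ n ≥ N, ∀ X Y : List α, Unc w (pw v n) X →
    G (Y ++ (pw v n ++ X)) = G (Y ++ (pw v (n + 1) ++ X))

open Classical in
/-- number of cuts inside `S` (above `c`) -/
noncomputable def nc (w : List α → R) : List α → List α → ℕ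
  | [], _ => 0
  | b :: S, c => nc w S c + if w (b :: (S ++ c)) ≠ 0 then 1 else 0

/-- memory `n` -/
def Mem {β : Type} (w : List α → R) (n : ℕ) (G : List α → β) : Prop :=
  ∀ c c' S : List α, w c ≠ 0 → w c' ≠ 0 → n ≤ nc w S c → G (S ++ c) = G (S ++ c')

def Lc {β : Type} (w : List α → R) (G : List α → β) : Prop :=
  FS G ∧ AP w G ∧ ∃ n, Mem w n G

/-- the restart property -/
def Rt {β : Type} (w : List α → R) (f : List α → β) : Prop :=
  ∀ c c' r : List α, w c ≠ 0 → w c' ≠ 0 → r ≠ [] → f (r ++ c) = f (r ++ c')

/-! ### FS -/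

section FS

variable {β γ δ : Type}

/-- a finite right congruence -/
theorem FS.of_cong {f : List α → β} {Q : Type} [Finite Q] (q : List α → Q)
    (h1 : ∀ X X' b, q X = q X' → q (b :: X) = q (b :: X'))
    (h2 : ∀ X X', q X = q X' → f X = f X') : FS f := by
  classical
  have key : ∀ Y X X', q X = q X' → q (Y ++ X) = q (Y ++ X') := by
    intro Y
    induction Y with
    | nil => intro X X' h; simpa using h
    | cons b Y ih => intro X X' h; exact h1 _ _ b (ih X X' h)
  let s : Q → (List α → β) := fun a =>
    if h : ∃ X, q X = a then (fun Y => f (Y ++ h.choose)) else (fun _ => f [])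
  refine (Set.finite_range s).subset ?_
  rintro _ ⟨X, rfl⟩
  refine ⟨q X, ?_⟩
  have h : ∃ X', q X' = q X := ⟨X, rfl⟩
  simp only [s, dif_pos h]
  funext Y
  exact h2 _ _ (key Y _ _ h.choose_spec)

theorem FS.cong {f : List α → β} (hf : FS f) :
    ∃ (Q : Type) (_ : Finite Q) (q : List α → Q),
      (∀ X X' b, q X = q X' → q (b :: X) = q (b :: X')) ∧
      (∀ X X', q X = q X' → f X = f X') := by
  refine ⟨Set.range fun X : List α => fun Y : List α => f (Y ++ X), hf.to_subtype,
    fun X => ⟨_, X, rfl⟩, ?_, ?_⟩
  · intro X X' b h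
    have h' := congrArg Subtype.val h
    simp only at h'
    apply Subtype.ext
    funext Y
    have := congrFun h' (Y ++ [b])
    simpa using this
  · intro X X' h
    have h' := congrFun (congrArg Subtype.val h) []
    simpa using h'

theorem FS.const (a : β) : FS (fun _ : List α => a) := by
  refine FS.of_cong (Q := Unit) (fun _ => ()) ?_ ?_ <;> intros <;> rfl

theorem FS.comp {f : List α → β} (hf : FS f) (φ : β → γ) : FS (fun X => φ (f X)) := by
  obtain ⟨Q, _, q, h1, h2⟩ := hf.cong
  exact FS.of_cong q h1 (fun X X' h => congrArg φ (h2 X X' h))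

theorem FS.prod {f : List α → β} {g : List α → γ} (hf : FS f) (hg : FS g) :
    FS (fun X => (f X, g X)) := by
  obtain ⟨Q, _, q, h1, h2⟩ := hf.cong
  obtain ⟨Q', _, q', h1', h2'⟩ := hg.cong
  refine FS.of_cong (Q := Q × Q') (fun X => (q X, q' X)) ?_ ?_
  · intro X X' b h
    simp only [Prod.mk.injEq] at h ⊢
    exact ⟨h1 _ _ b h.1, h1' _ _ b h.2⟩
  · intro X X' h
    simp only [Prod.mk.injEq] at h ⊢
    exact ⟨h2 _ _ h.1, h2' _ _ h.2⟩

theorem FS.map₂ {f : List α → β} {g : List α → γ} (hf : FS f) (hg : FS g) (φ : β → γ → δ) :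
    FS (fun X => φ (f X) (g X)) :=
  (hf.prod hg).comp (fun x => φ x.1 x.2)

theorem FS.tail {f : List α → β} (hf : FS f) : FS (fun X => f X.tail) := by
  obtain ⟨Q, _, q, h1, h2⟩ := hf.cong
  -- state: class of X, and class of X.tail
  refine FS.of_cong (Q := Q × Q) (fun X => (q X, q X.tail)) ?_ ?_
  · intro X X' b h
    simp only [Prod.mk.injEq, List.tail_cons] at h ⊢
    exact ⟨h1 _ _ b h.1, h.1⟩
  · intro X X' h
    simp only [Prod.mk.injEq] at h
    exact h2 _ _ h.2

theorem FS.drop {f : List α → β} (hf : FS f) (i : ℕ) : FS (fun X => f (X.drop i)) := by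
  induction i with
  | zero => simpa using hf
  | succ i ih =>
    have := ih.tail
    simpa [List.tail_drop, List.drop_tail] using this

/-- functions defined by a recursion over a finite state space -/
theorem FS.recur {f : List α → β} (hf : FS f) {Q : Type} [Finite Q] {g : List α → Q}
    (Φ : α → β → Q → Q) (hg : ∀ b X, g (b :: X) = Φ b (f (b :: X)) (g X)) : FS g := by
  obtain ⟨P, _, q, h1, h2⟩ := hf.cong
  refine FS.of_cong (Q := P × Q) (fun X => (q X, g X)) ?_ ?_
  · intro X X' b h
    simp only [Prod.mk.injEq] at h ⊢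
    refine ⟨h1 _ _ b h.1, ?_⟩
    rw [hg, hg, h.2, h2 _ _ (h1 _ _ b h.1)]
  · intro X X' h
    simp only [Prod.mk.injEq] at h
    exact h.2

/-- windows -/
theorem FS.take [Finite α] (J : ℕ) (f : List α → β) : FS (fun X => f (X.take J)) := by
  classical
  have hfin : Finite {l : List α // l.length ≤ J} := by
    have : {l : List α | l.length ≤ J}.Finite := List.finite_length_le α J
    exact this.to_subtype
  refine FS.of_cong (Q := {l : List α // l.length ≤ J})
    (fun X => ⟨X.take J, by simp⟩) ?_ ?_
  · intro X X' b h
    have h' := congrArg Subtype.val h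
    simp only at h'
    apply Subtype.ext
    simp only
    cases J with
    | zero => simp
    | succ J =>
      simp only [List.take_succ_cons, List.cons.injEq, true_and]
      have := congrArg (List.take J) h'
      simpa [List.take_take] using this
  · intro X X' h
    have h' := congrArg Subtype.val h
    simp only at h'
    rw [h']

end FS

/-! ### powers and uncut blocks -/

@[simp] theorem pw_nil (n : ℕ) : pw ([] : List α) n = [] := by
  induction n with
  | zero => rfl
  | succ n ih => simp [pw, ih]

theorem pw_comm (v : List α) (n : ℕ) : v ++ pw v n = pw v n ++ v := by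
  induction n with
  | zero => simp [pw]
  | succ n ih => simp only [pw, List.append_assoc, ← ih]

theorem pw_length (v : List α) (n : ℕ) : (pw v n).length = n * v.length := by
  induction n with
  | zero => simp [pw]
  | succ n ih => simp [pw, ih, Nat.succ_mul, Nat.add_comm]

theorem unc_nil (w : List α → R) (X : List α) : Unc w [] X := by
  intro B hB hB'
  exact absurd (List.suffix_nil.mp hB) hB'

theorem unc_cons {w : List α → R} {b : α} {V X : List α} :
    Unc w (b :: V) X ↔ w (b :: (V ++ X)) = 0 ∧ Unc w V X := by
  constructor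
  · intro h
    exact ⟨h (b :: V) (List.suffix_refl _) (by simp),
      fun B hB hB' => h B (hB.trans (List.suffix_cons _ _)) hB'⟩
  · rintro ⟨h1, h2⟩ B hB hB'
    rcases List.suffix_cons_iff.mp hB with rfl | h
    · exact h1
    · exact h2 B h hB'

theorem unc_append {w : List α → R} {U V X : List α} :
    Unc w (U ++ V) X ↔ Unc w U (V ++ X) ∧ Unc w V X := by
  induction U with
  | nil => simp [unc_nil]
  | cons b U ih =>
    rw [List.cons_append, unc_cons, unc_cons, ih, List.append_assoc]
    tauto

theorem Unc.suffix {w : List α → R} {U V X : List α} (h : Unc w V X) (hU : U <:+ V) :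
    Unc w U X := fun B hB hB' => h B (hB.trans hU) hB'

/-! ### AP -/

section AP

variable {β γ δ : Type} {w : List α → R}

theorem AP.const (a : β) : AP w (fun _ => a) := fun _ => ⟨0, fun _ _ _ _ _ => rfl⟩

theorem AP.comp {f : List α → β} (hf : AP w f) (φ : β → γ) : AP w (fun X => φ (f X)) := by
  intro v
  obtain ⟨N, hN⟩ := hf v
  exact ⟨N, fun n hn X Y h => congrArg φ (hN n hn X Y h)⟩

theorem AP.prod {f : List α → β} {g : List α → γ} (hf : AP w f) (hg : AP w g) :
    AP w (fun X => (f X, g X)) := by
  intro v
  obtain ⟨N, hN⟩ := hf v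
  obtain ⟨N', hN'⟩ := hg v
  exact ⟨max N N', fun n hn X Y h => Prod.ext (hN n (le_trans (le_max_left _ _) hn) X Y h)
    (hN' n (le_trans (le_max_right _ _) hn) X Y h)⟩

theorem AP.map₂ {f : List α → β} {g : List α → γ} (hf : AP w f) (hg : AP w g)
    (φ : β → γ → δ) : AP w (fun X => φ (f X) (g X)) :=
  (hf.prod hg).comp (fun x => φ x.1 x.2)

theorem AP.tail {f : List α → β} (hf : AP w f) : AP w (fun X => f X.tail) := by
  intro v
  obtain ⟨N, hN⟩ := hf v
  refine ⟨N + 1, fun n hn X Y h => ?_⟩
  obtain ⟨n, rfl⟩ : ∃ m, n = m + 1 := ⟨n - 1, by omega⟩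
  cases Y with
  | cons b Y =>
    simp only [List.cons_append, List.tail_cons]
    exact hN (n + 1) (by omega) X Y h
  | nil =>
    cases v with
    | nil => simp
    | cons b v =>
      have h0 : Unc w (pw (b :: v) n) X := h.suffix ⟨b :: v, rfl⟩
      have := hN n (by omega) X v h0
      simpa [pw] using this

theorem AP.drop {f : List α → β} (hf : AP w f) (i : ℕ) : AP w (fun X => f (X.drop i)) := by
  induction i with
  | zero => simpa using hf
  | succ i ih =>
    have := ih.tail
    simpa [List.tail_drop, List.drop_tail] using this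

theorem AP.take (J : ℕ) (f : List α → β) : AP w (fun X => f (X.take J)) := by
  intro v
  rcases eq_or_ne v [] with rfl | hv
  · exact ⟨0, fun n _ X Y _ => by simp⟩
  refine ⟨J, fun n hn X Y _ => ?_⟩
  have hl : J ≤ (pw v n).length := by
    rw [pw_length]
    have : 1 ≤ v.length := List.length_pos_iff.mpr hv
    nlinarith
  have e : (Y ++ (pw v n ++ X)).take J = (Y ++ (pw v (n + 1) ++ X)).take J := by
    have e2 : pw v (n + 1) = pw v n ++ v := by rw [pw, pw_comm]
    rw [e2, List.append_assoc, ← List.append_assoc, ← List.append_assoc Y (pw v n) (v ++ X)]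
    have l1 : J ≤ (Y ++ pw v n).length := by rw [List.length_append]; omega
    rw [List.take_append_of_le_length l1, List.take_append_of_le_length l1]
  show f _ = f _
  rw [e]

/-- uncut powers stay uncut -/
theorem AP.unc_succ (hw : AP w w) (v : List α) :
    ∃ N, ∀ n ≥ N, ∀ X, Unc w (pw v n) X → Unc w (pw v (n + 1)) X := by
  obtain ⟨N, hN⟩ := hw v
  refine ⟨N + 1, fun n hn X h => ?_⟩
  obtain ⟨n, rfl⟩ : ∃ m, n = m + 1 := ⟨n - 1, by omega⟩
  rw [show pw v (n + 1 + 1) = v ++ pw v (n + 1) from rfl, unc_append]
  refine ⟨?_, h⟩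
  intro B hB hB'
  have h0 : Unc w (pw v n) X := h.suffix ⟨v, rfl⟩
  have h1 := hN n (by omega) X B h0
  rw [← h1, ← List.append_assoc]
  refine h (B ++ pw v n) ?_ (by simp [hB'])
  obtain ⟨t, rfl⟩ := hB
  exact ⟨t, by simp [pw]⟩

end AP

/-! ### Mem -/

section Mem

variable {β γ δ : Type} {w : List α → R}

theorem Mem.mono {n m : ℕ} {f : List α → β} (hf : Mem w n f) (h : n ≤ m) : Mem w m f :=
  fun c c' S hc hc' hS => hf c c' S hc hc' (h.trans hS)

theorem Mem.const (a : β) : Mem w 0 (fun _ => a) := fun _ _ _ _ _ _ => rfl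

theorem Mem.comp {n : ℕ} {f : List α → β} (hf : Mem w n f) (φ : β → γ) :
    Mem w n (fun X => φ (f X)) :=
  fun c c' S hc hc' hS => congrArg φ (hf c c' S hc hc' hS)

theorem Mem.prod {n : ℕ} {f : List α → β} {g : List α → γ} (hf : Mem w n f) (hg : Mem w n g) :
    Mem w n (fun X => (f X, g X)) :=
  fun c c' S hc hc' hS => Prod.ext (hf c c' S hc hc' hS) (hg c c' S hc hc' hS)

theorem Mem.tail {n : ℕ} {f : List α → β} (hf : Mem w n f) :
    Mem w (n + 1) (fun X => f X.tail) := by
  intro c c' S hc hc' hS
  cases S with
  | nil => simp [nc] at hS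
  | cons b S =>
    simp only [List.cons_append, List.tail_cons]
    refine hf c c' S hc hc' ?_
    simp only [nc] at hS
    split_ifs at hS <;> omega

theorem Rt.mem {f : List α → β} (hf : Rt w f) : Mem w 1 f := by
  intro c c' S hc hc' hS
  refine hf c c' S hc hc' ?_
  rintro rfl
  simp [nc] at hS

theorem nc_append (w : List α → R) (U V X : List α) :
    nc w (U ++ V) X = nc w U (V ++ X) + nc w V X := by
  classical
  induction U with
  | nil => simp [nc]
  | cons b U ih => simp only [List.cons_append, nc, ih, List.append_assoc]; omega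

theorem nc_eq_zero {w : List α → R} {V X : List α} (h : Unc w V X) : nc w V X = 0 := by
  classical
  induction V with
  | nil => rfl
  | cons b V ih =>
    rw [unc_cons] at h
    simp [nc, ih h.2, h.1]

theorem nc_pos_of {w : List α → R} {V X : List α} (h : ¬ Unc w V X) : 1 ≤ nc w V X := by
  classical
  induction V with
  | nil => exact absurd (unc_nil w X) h
  | cons b V ih =>
    rw [unc_cons] at h
    by_cases h2 : Unc w V X
    · have h1 : w (b :: (V ++ X)) ≠ 0 := fun h1 => h ⟨h1, h2⟩
      simp [nc, h1]
    · have := ih h2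
      simp only [nc]; omega

theorem nc_le_length (w : List α → R) (V X : List α) : nc w V X ≤ V.length := by
  classical
  induction V with
  | nil => simp [nc]
  | cons b V ih =>
    simp only [nc, List.length_cons]
    split_ifs <;> omega

/-- windows have finite memory -/
theorem Mem.take (J : ℕ) (f : List α → β) : Mem w J (fun X => f (X.take J)) := by
  intro c c' S hc hc' hS
  have hl : J ≤ S.length := hS.trans (nc_le_length _ _ _)
  simp only
  rw [List.take_append_of_le_length hl, List.take_append_of_le_length hl]

theorem nc_congr (hw : Rt w w) {c c' : List α} (hc : w c ≠ 0) (hc' : w c' ≠ 0) (S : List α) :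
    nc w S c = nc w S c' := by
  classical
  induction S with
  | nil => rfl
  | cons b S ih =>
    have h := hw c c' (b :: S) hc hc' (by simp)
    simp only [List.cons_append] at h
    simp only [nc, ih, h]

end Mem

/-! ### Lc -/

section Lc

variable {β γ δ : Type} {w : List α → R}

theorem Lc.const (a : β) : Lc w (fun _ => a) := ⟨FS.const a, AP.const a, 0, Mem.const a⟩

theorem Lc.comp {f : List α → β} (hf : Lc w f) (φ : β → γ) : Lc w (fun X => φ (f X)) := by
  obtain ⟨h1, h2, n, h3⟩ := hf
  exact ⟨h1.comp φ, h2.comp φ, n, h3.comp φ⟩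

theorem Lc.prod {f : List α → β} {g : List α → γ} (hf : Lc w f) (hg : Lc w g) :
    Lc w (fun X => (f X, g X)) := by
  obtain ⟨h1, h2, n, h3⟩ := hf
  obtain ⟨h1', h2', n', h3'⟩ := hg
  exact ⟨h1.prod h1', h2.prod h2', max n n',
    (h3.mono (le_max_left _ _)).prod (h3'.mono (le_max_right _ _))⟩

theorem Lc.map₂ {f : List α → β} {g : List α → γ} (hf : Lc w f) (hg : Lc w g)
    (φ : β → γ → δ) : Lc w (fun X => φ (f X) (g X)) :=
  (hf.prod hg).comp (fun x => φ x.1 x.2)

theorem Lc.tail {f : List α → β} (hf : Lc w f) : Lc w (fun X => f X.tail) := by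
  obtain ⟨h1, h2, n, h3⟩ := hf
  exact ⟨h1.tail, h2.tail, n + 1, h3.tail⟩

theorem Lc.drop {f : List α → β} (hf : Lc w f) (i : ℕ) : Lc w (fun X => f (X.drop i)) := by
  induction i with
  | zero => simpa using hf
  | succ i ih =>
    have := ih.tail
    simpa [List.tail_drop, List.drop_tail] using this

theorem Lc.take [Finite α] (J : ℕ) (f : List α → β) : Lc w (fun X => f (X.take J)) :=
  ⟨FS.take J f, AP.take J f, J, Mem.take J f⟩

theorem Lc.head? [Finite α] (f : Option α → β) : Lc w (fun X => f X.head?) := by
  have := Lc.take (w := w) 1 (fun X => f X.head?)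
  simpa [List.head?_take] using this

/-- every finite family -/
theorem Lc.pi {ι : Type} [Finite ι] {f : ι → List α → β} (hf : ∀ i, Lc w (f i)) :
    Lc w (fun X i => f i X) := by
  classical
  cases nonempty_fintype ι
  have key : ∀ s : Finset ι, Lc w (fun X (i : ι) => if i ∈ s then some (f i X) else none) := by
    intro s
    induction s using Finset.induction_on with
    | empty => simpa using Lc.const (w := w) (fun _ : ι => (none : Option β))
    | insert a s ha ih =>
      have := ih.map₂ (hf a) (fun (F : ι → Option β) x => Function.update F a (some x))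
      convert this using 1
      funext X i
      by_cases hi : i = a
      · subst hi; simp
      · simp [hi]
  rcases isEmpty_or_nonempty β with hβ | ⟨⟨b0⟩⟩
  · rcases isEmpty_or_nonempty ι with hι | ⟨⟨i0⟩⟩
    · have : (fun (X : List α) (i : ι) => f i X) = fun _ => fun i => (hι.false i).elim := by
        funext X i; exact (hι.false i).elim
      rw [this]; exact Lc.const _
    · exact (hβ.false (f i0 [])).elim
  · have := (key Finset.univ).comp (fun F (i : ι) => (F i).getD b0)
    simpa using this

end Lc

/-! ### the `at` operator -/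

section At

variable {β γ δ : Type} {w : List α → R}

open Classical in
/-- distance to the last cut (`none` if there is none) -/
noncomputable def dist (w : List α → R) : List α → Option ℕ
  | [] => if w [] ≠ 0 then some 0 else none
  | b :: X => if w (b :: X) ≠ 0 then some 0 else (dist w X).map (· + 1)

/-- the value of `f` exactly `i` letters after the last cut (`z` if there is none) -/
noncomputable def atc (w : List α → R) (z : β) (i : ℕ) (f : List α → β) (X : List α) : β :=
  match dist w X with
  | none => z
  | some d => if i ≤ d then f (X.drop (d - i)) else z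

theorem dist_of_cut {X : List α} (h : w X ≠ 0) : dist w X = some 0 := by
  cases X with
  | nil => simp [dist, h]
  | cons b X => simp [dist, h]

theorem dist_cons_of_unc {b : α} {X : List α} (h : w (b :: X) = 0) :
    dist w (b :: X) = (dist w X).map (· + 1) := by
  simp [dist, h]

theorem dist_le {X : List α} {d : ℕ} (h : dist w X = some d) :
    d ≤ X.length ∧ w (X.drop d) ≠ 0 := by
  induction X generalizing d with
  | nil =>
    by_cases h0 : w [] = 0
    · simp [dist, h0] at h
    · simp [dist, h0] at h
      subst h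
      simpa using h0
  | cons b X ih =>
    by_cases h0 : w (b :: X) = 0
    · rw [dist_cons_of_unc h0] at h
      cases h1 : dist w X with
      | none => simp [h1] at h
      | some e =>
        simp only [h1, Option.map_some, Option.some.injEq] at h
        subst h
        obtain ⟨h2, h3⟩ := ih h1
        exact ⟨by simpa using h2, by simpa using h3⟩
    · rw [dist_of_cut h0] at h
      simp only [Option.some.injEq] at h
      subst h
      exact ⟨by simp, by simpa using h0⟩

theorem dist_append {V X : List α} (h : Unc w V X) :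
    dist w (V ++ X) = (dist w X).map (· + V.length) := by
  induction V with
  | nil => simp
  | cons b V ih =>
    rw [unc_cons] at h
    rw [List.cons_append, dist_cons_of_unc h.1, ih h.2, Option.map_map]
    congr 1

theorem atc_none {z : β} {i : ℕ} {f : List α → β} {X : List α} (h : dist w X = none) :
    atc w z i f X = z := by
  simp [atc, h]

theorem atc_some {z : β} {i d : ℕ} {f : List α → β} {X : List α} (h : dist w X = some d) :
    atc w z i f X = if i ≤ d then f (X.drop (d - i)) else z := by
  simp [atc, h]

open Classical in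
/-- recursion for `atc` -/
theorem atc_cons (z : β) (i : ℕ) (f : List α → β) (b : α) (X : List α) :
    atc w z i f (b :: X) =
      if w (b :: X) ≠ 0 then (if i = 0 then f (b :: X) else z)
      else match dist w X with
        | none => z
        | some d => if i ≤ d then atc w z i f X else if i = d + 1 then f (b :: X) else z := by
  by_cases h0 : w (b :: X) = 0
  · simp only [h0, ne_eq, not_true_eq_false, if_false]
    cases h1 : dist w X with
    | none =>
      rw [atc_none]
      rw [dist_cons_of_unc h0, h1]; rfl
    | some d =>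
      have h2 : dist w (b :: X) = some (d + 1) := by
        rw [dist_cons_of_unc h0, h1]; rfl
      rw [atc_some h2]
      simp only
      by_cases h3 : i ≤ d
      · rw [if_pos (by omega), if_pos h3, atc_some h1, if_pos h3]
        rw [show d + 1 - i = (d - i) + 1 by omega, List.drop_succ_cons]
      · rw [if_neg h3]
        by_cases h4 : i = d + 1
        · subst h4
          simp
        · rw [if_neg (by omega), if_neg h4]
  · rw [if_pos h0, atc_some (dist_of_cut h0)]
    by_cases hi : i = 0
    · subst hi; simp
    · rw [if_neg (by omega), if_neg hi]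

/-- the capped distance has finitely many values -/
theorem FS.dcap (hw : FS w) (k : ℕ) : FS (fun X => (dist w X).map (min k)) := by
  classical
  let g : List α → Option (Fin (k + 1)) := fun X =>
    (dist w X).map (fun d => ⟨min k d, by omega⟩)
  have hg : FS g := by
    refine FS.recur hw (g := g)
      (fun _ x q => if x ≠ 0 then some ⟨0, by omega⟩ else q.map
        (fun d => ⟨min k (d.1 + 1), by omega⟩)) ?_
    intro b X
    by_cases h0 : w (b :: X) = 0
    · simp only [g, h0, ne_eq, not_true_eq_false, if_false]
      rw [dist_cons_of_unc h0, Option.map_map, Option.map_map]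
      congr 1
      funext d
      apply Fin.ext
      simp only [Function.comp_apply]
      omega
    · simp only [g, h0, ne_eq, not_false_eq_true, if_true]
      rw [dist_of_cut h0]
      simp
  have := hg.comp (fun q => q.map Fin.val)
  convert this using 1
  funext X
  simp only [g, Option.map_map]
  rfl

theorem FS.atc [Finite β] (hw : FS w) {f : List α → β} (hf : FS f) (z : β) (i : ℕ) :
    FS (Vale.Agent.P329.H3.atc w z i f) := by
  classical
  -- the pair (capped distance, value) is a recursion
  have h1 := (hw.dcap (i + 1)).tail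
  have h2 : FS (fun X => (((dist w X.tail).map (min (i + 1)), w X), f X)) :=
    (h1.prod hw).prod hf
  refine FS.recur h2 (g := Vale.Agent.P329.H3.atc w z i f)
    (fun _ x q => if x.1.2 ≠ 0 then (if i = 0 then x.2 else z) else
      match x.1.1 with
        | none => z
        | some d => if i ≤ d then (if d = i + 1 ∨ d = i then q else q) else
          if i = d + 1 then x.2 else z) ?_
  intro b X
  rw [atc_cons]
  simp only [List.tail_cons]
  cases h3 : dist w X with
  | none => simp
  | some d =>
    simp only [Option.map_some]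
    by_cases h0 : w (b :: X) = 0
    · simp only [h0, ne_eq, not_true_eq_false, if_false, ite_self]
      by_cases h4 : i ≤ d
      · rw [if_pos h4, if_pos (by omega)]
      · have h5 : min (i + 1) d = d := by omega
        rw [h5, if_neg h4]
    · simp [h0]

/-- `dist` capped is constant along long uncut powers -/
theorem AP.dcap (hw : AP w w) (k : ℕ) : AP w (fun X => (dist w X).map (min k)) := by
  intro v
  rcases eq_or_ne v [] with rfl | hv
  · exact ⟨0, fun n _ X Y _ => by simp⟩
  obtain ⟨N, hN⟩ := hw v
  obtain ⟨N', hN'⟩ := hw.unc_succ v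
  refine ⟨max (max N N') k, fun n hn X Y h => ?_⟩
  have hl : k ≤ (pw v n).length := by
    rw [pw_length]
    have : 1 ≤ v.length := List.length_pos_iff.mpr hv
    have : k ≤ n := le_trans (le_max_right _ _) hn
    nlinarith
  have hl' : k ≤ (pw v (n + 1)).length := by
    simp only [pw, List.length_append]; omega
  have h' : Unc w (pw v (n + 1)) X := hN' n (by omega) X h
  induction Y with
  | nil =>
    simp only [List.nil_append]
    rw [dist_append h, dist_append h', Option.map_map, Option.map_map]
    congr 1
    funext d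
    simp only [Function.comp_apply]
    omega
  | cons b Y ih =>
    simp only [List.cons_append] at ih ⊢
    have e := hN n (by omega) X (b :: Y) h
    simp only [List.cons_append] at e
    by_cases h0 : w (b :: (Y ++ (pw v n ++ X))) = 0
    · have h0' : w (b :: (Y ++ (pw v (n + 1) ++ X))) = 0 := by rw [← e]; exact h0
      rw [dist_cons_of_unc h0, dist_cons_of_unc h0']
      revert ih
      cases dist w (Y ++ (pw v n ++ X)) <;> cases dist w (Y ++ (pw v (n + 1) ++ X)) <;> simp
      omega
    · have h0' : w (b :: (Y ++ (pw v (n + 1) ++ X))) ≠ 0 := by rw [← e]; exact h0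
      rw [dist_of_cut h0, dist_of_cut h0']

theorem AP.atc (hw : AP w w) {f : List α → β} (hf : AP w f) (z : β) (i : ℕ) :
    AP w (Vale.Agent.P329.H3.atc w z i f) := by
  intro v
  rcases eq_or_ne v [] with rfl | hv
  · exact ⟨0, fun n _ X Y _ => by simp⟩
  obtain ⟨N, hN⟩ := hw v
  obtain ⟨N', hN'⟩ := hw.unc_succ v
  obtain ⟨N₁, hN₁⟩ := hw.dcap (i + 1) v
  obtain ⟨N₂, hN₂⟩ := hf v
  refine ⟨max (max (max N N') (max N₁ N₂)) (i + 1), fun n hn X Y h => ?_⟩
  have hl : i + 1 ≤ (pw v n).length := by
    rw [pw_length]
    have : 1 ≤ v.length := List.length_pos_iff.mpr hv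
    have : i + 1 ≤ n := le_trans (le_max_right _ _) hn
    nlinarith
  have h' : Unc w (pw v (n + 1)) X := hN' n (by omega) X h
  induction Y with
  | nil =>
    simp only [List.nil_append]
    have h'' : Unc w v (pw v n ++ X) := by
      rw [show pw v (n + 1) = v ++ pw v n from rfl, unc_append] at h'
      exact h'.1
    have e2 : pw v (n + 1) ++ X = v ++ (pw v n ++ X) := by simp [pw]
    have hd := dist_append h
    cases h1 : dist w X with
    | none =>
      rw [atc_none (by rw [hd, h1]; rfl), atc_none (by rw [dist_append h', h1]; rfl)]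
    | some d =>
      have hd1 : dist w (pw v n ++ X) = some (d + (pw v n).length) := by rw [hd, h1]; rfl
      have hd2 : dist w (v ++ (pw v n ++ X)) = some (d + (pw v n).length + v.length) := by
        rw [dist_append h'', hd1]; rfl
      rw [e2, atc_some hd1, atc_some hd2, if_pos (by omega), if_pos (by omega)]
      congr 1
      rw [show d + (pw v n).length + v.length - i = v.length + (d + (pw v n).length - i) by omega,
        ← List.drop_drop]
      simp
  | cons b Y ih =>
    simp only [List.cons_append] at ih ⊢
    have e := hN n (by omega) X (b :: Y) h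
    have e1 := hN₁ n (by omega) X Y h
    have e2 := hN₂ n (by omega) X (b :: Y) h
    simp only [List.cons_append] at e e1 e2
    rw [atc_cons, atc_cons, ← e, ← e2, ih]
    revert e1
    cases dist w (Y ++ (pw v n ++ X)) <;> cases dist w (Y ++ (pw v (n + 1) ++ X)) <;> simp
    rename_i d d'
    intro e1
    have h3 : (i ≤ d) = (i ≤ d') := by simp only [eq_iff_iff]; omega
    have h4 : (i = d + 1) = (i = d' + 1) := by simp only [eq_iff_iff]; omega
    simp only [h3, h4]

theorem dist_cut_append {w : List α → R} (hw : Rt w w) {c c' : List α} (hc : w c ≠ 0)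
    (hc' : w c' ≠ 0) (S : List α) :
    ∃ d ≤ S.length, dist w (S ++ c) = some d ∧ dist w (S ++ c') = some d ∧
      Unc w (S.take d) (S.drop d ++ c) := by
  induction S with
  | nil =>
    refine ⟨0, le_refl _, ?_, ?_, ?_⟩
    · simpa using dist_of_cut hc
    · simpa using dist_of_cut hc'
    · simpa using unc_nil w _
  | cons b S ih =>
    obtain ⟨d, hd, h1, h2, h3⟩ := ih
    have e := hw c c' (b :: S) hc hc' (by simp)
    simp only [List.cons_append] at e
    by_cases h0 : w (b :: (S ++ c)) = 0
    · refine ⟨d + 1, by simpa using hd, ?_, ?_, ?_⟩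
      · rw [List.cons_append, dist_cons_of_unc h0, h1]; rfl
      · rw [List.cons_append, dist_cons_of_unc (by rw [← e]; exact h0), h2]; rfl
      · simp only [List.take_succ_cons, List.drop_succ_cons]
        rw [unc_cons]
        refine ⟨?_, h3⟩
        rw [← List.append_assoc, List.take_append_drop]
        exact h0
    · refine ⟨0, Nat.zero_le _, ?_, ?_, ?_⟩
      · rw [List.cons_append]; exact dist_of_cut h0
      · rw [List.cons_append]; exact dist_of_cut (by rw [← e]; exact h0)
      · simpa using unc_nil w _

theorem Mem.atc {n : ℕ} (hw : Rt w w) {f : List α → β} (hf : Mem w n f) (z : β) (i : ℕ) :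
    Mem w n (Vale.Agent.P329.H3.atc w z i f) := by
  intro c c' S hc hc' hS
  obtain ⟨d, hd, h1, h2, h3⟩ := dist_cut_append hw hc hc' S
  rw [atc_some h1, atc_some h2]
  by_cases hi : i ≤ d
  · rw [if_pos hi, if_pos hi, List.drop_append_of_le_length (by omega),
      List.drop_append_of_le_length (by omega)]
    refine hf c c' _ hc hc' ?_
    have e : nc w S c = nc w (S.take (d - i)) (S.drop (d - i) ++ c) + nc w (S.drop (d - i)) c := by
      rw [← nc_append, List.take_append_drop]
    have e2 : Unc w (S.take (d - i)) (S.drop (d - i) ++ c) := by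
      have h4 : S.take (d - i) ++ (S.drop (d - i)).take i = S.take d := by
        rw [← List.take_add]
        congr 1
        omega
      have h5 : (S.drop (d - i)).take i ++ S.drop d = S.drop (d - i) := by
        have h6 : S.drop d = (S.drop (d - i)).drop i := by
          rw [List.drop_drop]; congr 1; omega
        rw [h6, List.take_append_drop]
      rw [← h4, unc_append] at h3
      have h7 := h3.1
      rwa [← List.append_assoc, h5] at h7
    rw [nc_eq_zero e2] at e
    omega
  · rw [if_neg hi, if_neg hi]

theorem Lc.atc [Finite β] (hw : FS w) (hw' : AP w w) (hr : Rt w w) {f : List α → β}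
    (hf : Lc w f) (z : β) (i : ℕ) : Lc w (Vale.Agent.P329.H3.atc w z i f) := by
  obtain ⟨h1, h2, n, h3⟩ := hf
  exact ⟨FS.atc hw h1 z i, AP.atc hw' h2 z i, n, Mem.atc hr h3 z i⟩

end At

/-! ### the cut flag, and helper100's `atc` -/

section Bridge

variable {S : Type} [CommRing S] {w : List α → S}

theorem since_eq (h0 : w [] = 0) (X : List α) :
    H100.since (fun X => w X ≠ 0) X = dist w X := by
  induction X with
  | nil => simp [H100.since, dist, h0]
  | cons b X ih => simp [H100.since, dist, ih]

theorem atc_eq (h0 : w [] = 0) (i : ℕ) (f : List α → S) :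
    H100.atc (fun X => w X ≠ 0) i f = atc w 0 i f := by
  classical
  funext X
  induction X with
  | nil => simp [H100.atc, atc, dist, h0]
  | cons b X ih =>
    rw [atc_cons]
    simp only [H100.atc]
    by_cases hb : w (b :: X) = 0
    · have h1 : H100.since (fun X => w X ≠ 0) (b :: X) = (dist w X).map (· + 1) := by
        rw [since_eq h0, dist_cons_of_unc hb]
      rw [h1, ih]
      simp only [hb, ne_eq, not_true_eq_false, if_false]
      cases h2 : dist w X with
      | none => simp [atc_none h2]
      | some d =>
        simp only [Option.map_some, Option.some.injEq]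
        by_cases h3 : i ≤ d
        · rw [if_pos h3, if_neg (by omega)]
        · rw [if_neg h3, atc_some h2, if_neg h3]
          by_cases h4 : i = d + 1
          · rw [if_pos h4, if_pos h4.symm]
          · rw [if_neg h4, if_neg (fun h => h4 h.symm)]
    · have h1 : H100.since (fun X => w X ≠ 0) (b :: X) = some 0 := by
        rw [since_eq h0, dist_of_cut hb]
      rw [h1]
      by_cases hi : i = 0
      · subst hi; simp [hb]
      · rw [if_neg (by simpa using fun h : 0 = i => hi h.symm)]
        simp [hb, hi]

theorem Lc.add {f g : List α → S} (hf : Lc w f) (hg : Lc w g) : Lc w (f + g) :=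
  hf.map₂ hg (· + ·)

theorem Lc.mul {f g : List α → S} (hf : Lc w f) (hg : Lc w g) : Lc w (f * g) :=
  hf.map₂ hg (· * ·)

theorem Lc.neg {f : List α → S} (hf : Lc w f) : Lc w (-f) := hf.comp (fun x => -x)

theorem Lc.sub {f g : List α → S} (hf : Lc w f) (hg : Lc w g) : Lc w (f - g) :=
  hf.map₂ hg (· - ·)

theorem Lc.smul {f : List α → S} (hf : Lc w f) (a : S) : Lc w (fun X => a * f X) :=
  hf.comp (fun x => a * x)

/-- the class as a subring -/
def LcR (w : List α → S) : Subring (List α → S) where
  carrier := {f | Lc w f}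
  mul_mem' hf hg := Lc.mul hf hg
  one_mem' := Lc.const 1
  add_mem' hf hg := Lc.add hf hg
  zero_mem' := Lc.const 0
  neg_mem' hf := Lc.neg hf

theorem mem_LcR {f : List α → S} : f ∈ LcR w ↔ Lc w f := Iff.rfl

theorem Lc.sum {ι : Type} (s : Finset ι) {f : ι → List α → S} (hf : ∀ i ∈ s, Lc w (f i)) :
    Lc w (fun X => ∑ i ∈ s, f i X) := by
  have h := (LcR w).sum_mem (t := s) (f := f) hf
  have e : (∑ i ∈ s, f i) = fun X => ∑ i ∈ s, f i X := by funext X; simp
  rw [e] at h
  exact h

theorem Lc.prod' {ι : Type} (s : Finset ι) {f : ι → List α → S} (hf : ∀ i ∈ s, Lc w (f i)) :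
    Lc w (fun X => ∏ i ∈ s, f i X) := by
  have h := (LcR w).prod_mem (t := s) (f := f) hf
  have e : (∏ i ∈ s, f i) = fun X => ∏ i ∈ s, f i X := by funext X; simp
  rw [e] at h
  exact h

/-- a stage function is in its own class -/
theorem Lc.self (hw : FS w) (hw' : AP w w) (hr : Rt w w) : Lc w w := ⟨hw, hw', 1, hr.mem⟩

/-- level sets -/
theorem Lc.ind {β : Type} {f : List α → β} (hf : Lc w f) (P : β → Prop) [DecidablePred P] :
    Lc w (fun X => if P (f X) then (1 : S) else 0) :=
  hf.comp (fun x => if P x then (1 : S) else 0)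

theorem Lc.at100 [Finite S] (h0 : w [] = 0) (hw : FS w) (hw' : AP w w) (hr : Rt w w)
    {f : List α → S} (hf : Lc w f) (i : ℕ) : Lc w (H100.atc (fun X => w X ≠ 0) i f) := by
  rw [atc_eq h0]
  exact Lc.atc hw hw' hr hf 0 i

open Classical in
/-- row (E), regroup, for the literal class: `k` has a cut among its last `J` suffixes. -/
theorem Lc.marks [Finite S] (h0 : w [] = 0) (hw : FS w) (hw' : AP w w) (hr : Rt w w)
    {k G : List α → S} (hk : Lc w k) (hG : Lc w G) (J : ℕ)
    (hJ : ∀ X, k X ≠ 0 → ∃ i < J, w (List.tail^[i] X) ≠ 0) :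
    ∃ g, Lc w g ∧ (∀ X, w X = 0 → g X = 0) ∧ ∃ G', Lc w G' ∧
      H100.TL k G = H100.TL g 1 + G' := by
  have := H100.marks (c := fun X => w X ≠ 0) (LcR w) (by simpa using h0)
    (show Lc w _ by convert (Lc.self hw hw' hr).ind (fun x => x ≠ 0)) (fun f hf => Lc.tail hf)
    (fun i f hf => Lc.at100 h0 hw hw' hr hf i) hk hG J hJ
  obtain ⟨g, hg, h1, G', hG', h2⟩ := this
  exact ⟨g, hg, fun X hX => h1 X (by simpa using hX), G', hG', h2⟩

open Classical in
/-- gauge for the literal class -/
theorem Lc.gauge [Finite S] (h0 : w [] = 0) (hw : FS w) (hw' : AP w w) (hr : Rt w w)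
    {φ Ψ : List α → S} (hφ : Lc w φ) (h1 : ∀ X, w X = 0 → φ X = 0) (hΨ : Lc w Ψ) :
    ∃ φ', Lc w φ' ∧ (∀ X, w X = 0 → φ' X = 0) ∧
      (∀ X, w X ≠ 0 → φ' X = φ X - (Ψ X - Vale.Agent.P329.H3.atc w 0 0 Ψ X.tail)) ∧
      Lc w (Vale.Agent.P329.H3.atc w 0 0 Ψ) ∧ H100.TL φ 1 = H100.TL φ' 1 + Vale.Agent.P329.H3.atc w 0 0 Ψ := by
  have := H100.gauge (c := fun X => w X ≠ 0) (LcR w)
    (show Lc w _ by convert (Lc.self hw hw' hr).ind (fun x => x ≠ 0)) (fun f hf => Lc.tail hf)
    (fun i f hf => Lc.at100 h0 hw hw' hr hf i) hφ (by simpa using h1) hΨ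
  simp only [atc_eq h0] at this
  obtain ⟨φ', hφ', h2, h3, h4, h5⟩ := this
  exact ⟨φ', hφ', fun X hX => h2 X (by simpa using hX), h3, h4, h5⟩

end Bridge

end Vale.Agent.P329.H3
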